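import Mathlib

/-! # P157: one-dimensional marginals of the Gaussian disorder -/

namespace Vale.Agent.P157

open MeasureTheory ProbabilityTheory Complex

theorem map_lin {N : ℕ} (hN : 0 < N) (x : Fin N → ℝ) (hx : ∀ i, x i ^ 2 = 1) :
    (Measure.pi (fun _ : Fin N => gaussianReal 0 1)).map (fun v => (∑ i, v i * x i) / √N)
      = gaussianReal 0 1 := by
  have hmeas : Measurable (fun v : Fin N → ℝ => (∑ i, v i * x i) / √N) := by fun_prop
  have : IsProbabilityMeasure
      ((Measure.pi (fun _ : Fin N => gaussianReal 0 1)).map (fun v => (∑ i, v i * x i) / √N)) :=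
    Measure.isProbabilityMeasure_map hmeas.aemeasurable
  refine Measure.ext_of_charFun ?_
  funext t
  rw [charFun_apply_real, integral_map hmeas.aemeasurable (by fun_prop), charFun_gaussianReal]
  have h1 : ∀ v : Fin N → ℝ, cexp (t * (((∑ i, v i * x i) / √N : ℝ) : ℂ) * I)
      = ∏ i, cexp (((t * x i / √N : ℝ) : ℂ) * (v i : ℂ) * I) := by
    intro v
    rw [← Complex.exp_sum]
    congr 1
    push_cast
    rw [Finset.sum_div, Finset.mul_sum, Finset.sum_mul]
    refine Finset.sum_congr rfl fun i _ => ?_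
    ring
  simp_rw [h1]
  rw [integral_fintype_prod_eq_prod (𝕜 := ℂ)
    (f := fun (i : Fin N) (y : ℝ) => cexp (((t * x i / √N : ℝ) : ℂ) * (y : ℂ) * I))]
  have h2 : ∀ i : Fin N, (∫ y : ℝ, cexp (((t * x i / √N : ℝ) : ℂ) * (y : ℂ) * I) ∂(gaussianReal 0 1))
      = cexp (-(t ^ 2 / (2 * N) : ℝ)) := by
    intro i
    rw [← charFun_apply_real, charFun_gaussianReal]
    congr 1
    have hsq : (√(N : ℝ)) ^ 2 = N := Real.sq_sqrt (Nat.cast_nonneg N)
    have e : (t * x i / √N) ^ 2 = t ^ 2 / N := by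
      rw [div_pow, mul_pow, hx i, hsq, mul_one]
    have e2 : (((t * x i / √N : ℝ) : ℂ)) ^ 2 = ((t ^ 2 / N : ℝ) : ℂ) := by
      rw [← e]; push_cast; ring
    simp only [e2]
    push_cast
    ring
  simp_rw [h2]
  rw [Finset.prod_const, Finset.card_univ, Fintype.card_fin, ← Complex.exp_nat_mul]
  congr 1
  have hN' : (N : ℂ) ≠ 0 := by exact_mod_cast hN.ne'
  push_cast
  field_simp
  ring

end Vale.Agent.P157
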