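import Vale.Agent.P157.Gauss

/-! # P157: the Ising perceptron, bounds beyond the annealed bound -/

namespace Vale.Agent.P157

open MeasureTheory ProbabilityTheory

/-- the Gaussian disorder: `M` independent standard Gaussian vectors in `ℝ^N` -/
noncomputable def disorder (M N : ℕ) : Measure (Fin M → Fin N → ℝ) :=
  Measure.pi fun _ => Measure.pi fun _ => gaussianReal 0 1

/-- the value `±1` of a spin -/
def spin (b : Bool) : ℝ := if b then 1 else -1

/-- the Hamiltonian `∑ₐ f(gᵃ·x/√N)` -/
noncomputable def ham (f : ℝ → ℝ) {M N : ℕ} (g : Fin M → Fin N → ℝ) (x : Fin N → Bool) : ℝ :=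
  ∑ a, f ((∑ i, g a i * spin (x i)) / √N)

/-- the pressure of the Ising perceptron -/
noncomputable def pressure (f : ℝ → ℝ) (M N : ℕ) (g : Fin M → Fin N → ℝ) : ℝ :=
  1 / N * Real.log ((∑ x : Fin N → Bool, Real.exp (ham f g x)) / 2 ^ N)

instance (M N : ℕ) : IsProbabilityMeasure (disorder M N) := by
  unfold disorder; infer_instance

theorem spin_sq (b : Bool) : spin b ^ 2 = 1 := by cases b <;> simp [spin]

theorem ham_measurable {f : ℝ → ℝ} (hf : Measurable f) {M N : ℕ} (x : Fin N → Bool) :
    Measurable fun g : Fin M → Fin N → ℝ => ham f g x := by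
  unfold ham
  refine Finset.measurable_sum _ fun a _ => hf.comp ?_
  fun_prop

theorem ham_abs {f : ℝ → ℝ} {B : ℝ} (hB : ∀ t, |f t| ≤ B) {M N : ℕ} (g : Fin M → Fin N → ℝ)
    (x : Fin N → Bool) : |ham f g x| ≤ M * B := by
  unfold ham
  refine (Finset.abs_sum_le_sum_abs _ _).trans ?_
  refine (Finset.sum_le_sum fun a _ => hB _).trans ?_
  simp

/-- the partition function at inverse temperature `s` -/
noncomputable def Zs (s : ℝ) (f : ℝ → ℝ) {M N : ℕ} (g : Fin M → Fin N → ℝ) : ℝ :=
  (∑ x : Fin N → Bool, Real.exp (s * ham f g x)) / 2 ^ N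

theorem Zs_pos (s : ℝ) (f : ℝ → ℝ) {M N : ℕ} (g : Fin M → Fin N → ℝ) : 0 < Zs s f g := by
  unfold Zs
  exact div_pos (Finset.sum_pos (fun x _ => Real.exp_pos _) Finset.univ_nonempty) (by positivity)

theorem Zs_measurable (s : ℝ) {f : ℝ → ℝ} (hf : Measurable f) {M N : ℕ} :
    Measurable fun g : Fin M → Fin N → ℝ => Zs s f g := by
  unfold Zs
  exact (Finset.measurable_sum _ fun x _ =>
    Real.measurable_exp.comp ((ham_measurable hf x).const_mul s)).div_const _

theorem card_cube (N : ℕ) : ((Finset.univ : Finset (Fin N → Bool)).card : ℝ) = 2 ^ N := by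
  rw [Finset.card_univ, Fintype.card_fun, Fintype.card_bool, Fintype.card_fin]; norm_num

theorem Zs_le {s : ℝ} (hs : 0 ≤ s) {f : ℝ → ℝ} {B : ℝ} (hB : ∀ t, |f t| ≤ B) {M N : ℕ}
    (g : Fin M → Fin N → ℝ) : Zs s f g ≤ Real.exp (s * (M * B)) := by
  unfold Zs
  rw [div_le_iff₀ (by positivity)]
  calc (∑ x : Fin N → Bool, Real.exp (s * ham f g x))
      ≤ ∑ _x : Fin N → Bool, Real.exp (s * (M * B)) := Finset.sum_le_sum fun x _ =>
        Real.exp_le_exp.2 (mul_le_mul_of_nonneg_left ((le_abs_self _).trans (ham_abs hB g x)) hs)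
    _ = Real.exp (s * (M * B)) * 2 ^ N := by
        rw [Finset.sum_const, nsmul_eq_mul, card_cube]; ring

theorem le_Zs {s : ℝ} (hs : 0 ≤ s) {f : ℝ → ℝ} {B : ℝ} (hB : ∀ t, |f t| ≤ B) {M N : ℕ}
    (g : Fin M → Fin N → ℝ) : Real.exp (-(s * (M * B))) ≤ Zs s f g := by
  unfold Zs
  rw [le_div_iff₀ (by positivity)]
  calc Real.exp (-(s * (M * B))) * 2 ^ N
      = ∑ _x : Fin N → Bool, Real.exp (-(s * (M * B))) := by
        rw [Finset.sum_const, nsmul_eq_mul, card_cube]; ring
    _ ≤ ∑ x : Fin N → Bool, Real.exp (s * ham f g x) := Finset.sum_le_sum fun x _ => by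
        refine Real.exp_le_exp.2 ?_
        have h := (abs_le.1 (ham_abs hB g x)).1
        nlinarith [mul_le_mul_of_nonneg_left h hs]

theorem Zs_integrable {s : ℝ} (hs : 0 ≤ s) {f : ℝ → ℝ} (hf : Measurable f) {B : ℝ}
    (hB : ∀ t, |f t| ≤ B) {M N : ℕ} :
    Integrable (fun g : Fin M → Fin N → ℝ => Zs s f g) (disorder M N) := by
  refine Integrable.of_bound (Zs_measurable s hf).aestronglyMeasurable
    (Real.exp (s * (M * B))) (Filter.Eventually.of_forall fun g => ?_)
  rw [Real.norm_of_nonneg (Zs_pos s f g).le]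
  exact Zs_le hs hB g

/-- the annealed computation -/
theorem Zs_integral {s : ℝ} {f : ℝ → ℝ} (hf : Measurable f) {B : ℝ} (hs : 0 ≤ s)
    (hB : ∀ t, |f t| ≤ B) {M N : ℕ} (hN : 0 < N) :
    ∫ g, Zs s f g ∂(disorder M N) = (∫ t, Real.exp (s * f t) ∂(gaussianReal 0 1)) ^ M := by
  unfold Zs
  rw [integral_div, integral_finsetSum]
  · have h1 : ∀ x : Fin N → Bool, ∫ g, Real.exp (s * ham f g x) ∂(disorder M N)
        = (∫ t, Real.exp (s * f t) ∂(gaussianReal 0 1)) ^ M := by
      intro x
      have e1 : ∀ g : Fin M → Fin N → ℝ, Real.exp (s * ham f g x)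
          = ∏ a, Real.exp (s * f ((∑ i, g a i * spin (x i)) / √N)) := by
        intro g
        unfold ham
        rw [Finset.mul_sum, Real.exp_sum]
      simp_rw [e1]
      unfold disorder
      rw [integral_fintype_prod_eq_prod (𝕜 := ℝ)
        (f := fun (_ : Fin M) (v : Fin N → ℝ) =>
          Real.exp (s * f ((∑ i, v i * spin (x i)) / √N)))]
      rw [Finset.prod_const, Finset.card_univ, Fintype.card_fin]
      congr 1
      have hmeas : Measurable (fun v : Fin N → ℝ => (∑ i, v i * spin (x i)) / √N) := by fun_prop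
      have h2 := integral_map (μ := Measure.pi (fun _ : Fin N => gaussianReal 0 1))
        hmeas.aemeasurable (f := fun t => Real.exp (s * f t))
        (Real.measurable_exp.comp (hf.const_mul s)).aestronglyMeasurable
      rw [map_lin hN (fun i => spin (x i)) (fun i => spin_sq (x i))] at h2
      exact h2.symm
    simp_rw [h1]
    rw [Finset.sum_const, nsmul_eq_mul, card_cube]
    field_simp
  · intro x _
    refine Integrable.of_bound (Real.measurable_exp.comp
      ((ham_measurable hf x).const_mul s)).aestronglyMeasurable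
      (Real.exp (s * (M * B))) (Filter.Eventually.of_forall fun g => ?_)
    rw [Real.norm_of_nonneg (Real.exp_pos _).le]
    exact Real.exp_le_exp.2
      (mul_le_mul_of_nonneg_left ((le_abs_self _).trans (ham_abs hB g x)) hs)

/-- comparison of temperatures -/
theorem log_Z1_le {s : ℝ} (hs : 0 < s) (hs1 : s ≤ 1) (f : ℝ → ℝ) {M N : ℕ}
    (g : Fin M → Fin N → ℝ) :
    Real.log (Zs 1 f g) ≤ 1 / s * Real.log (Zs s f g) + (1 / s - 1) * (N * Real.log 2) := by
  set Y : ℝ := ∑ x : Fin N → Bool, Real.exp (1 * ham f g x) with hY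
  set W : ℝ := ∑ x : Fin N → Bool, Real.exp (s * ham f g x) with hW
  have hYpos : 0 < Y := Finset.sum_pos (fun x _ => Real.exp_pos _) Finset.univ_nonempty
  have hWpos : 0 < W := Finset.sum_pos (fun x _ => Real.exp_pos _) Finset.univ_nonempty
  have h1 : Y ^ s ≤ W := by
    have h2 : ∀ x : Fin N → Bool, Real.exp (1 * ham f g x) * Y ^ s ≤ Real.exp (s * ham f g x) * Y := by
      intro x
      have hle : Real.exp (1 * ham f g x) ≤ Y :=
        Finset.single_le_sum (f := fun x : Fin N → Bool => Real.exp (1 * ham f g x))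
          (fun _ _ => (Real.exp_pos _).le) (Finset.mem_univ x)
      have hle' : ham f g x ≤ Real.log Y := by
        rw [Real.le_log_iff_exp_le hYpos]
        simpa using hle
      have e1 : Real.exp (1 * ham f g x) * Y ^ s = Real.exp (ham f g x + s * Real.log Y) := by
        rw [Real.rpow_def_of_pos hYpos, ← Real.exp_add]; ring_nf
      have e2 : Real.exp (s * ham f g x) * Y = Real.exp (s * ham f g x + Real.log Y) := by
        rw [Real.exp_add, Real.exp_log hYpos]
      rw [e1, e2]
      refine Real.exp_le_exp.2 ?_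
      nlinarith
    have h3 := Finset.sum_le_sum fun x (_ : x ∈ (Finset.univ : Finset (Fin N → Bool))) => h2 x
    rw [← Finset.sum_mul, ← Finset.sum_mul, ← hY, ← hW] at h3
    have h4 : Y * Y ^ s ≤ Y * W := by linarith
    exact le_of_mul_le_mul_left h4 hYpos
  have h5 : s * Real.log Y ≤ Real.log W := by
    have := Real.log_le_log (Real.rpow_pos_of_pos hYpos s) h1
    rwa [Real.log_rpow hYpos] at this
  have e3 : Real.log (Zs 1 f g) = Real.log Y - N * Real.log 2 := by
    unfold Zs
    rw [Real.log_div hYpos.ne' (by positivity), Real.log_pow]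
  have e4 : Real.log (Zs s f g) = Real.log W - N * Real.log 2 := by
    unfold Zs
    rw [Real.log_div hWpos.ne' (by positivity), Real.log_pow]
  rw [e3, e4]
  have h6 : Real.log Y ≤ 1 / s * Real.log W := by
    rw [one_div, inv_mul_eq_div, le_div_iff₀ hs]
    linarith
  have h7 : 1 / s * (Real.log W - N * Real.log 2) + (1 / s - 1) * (N * Real.log 2)
      = 1 / s * Real.log W - N * Real.log 2 := by ring
  rw [h7]
  linarith

theorem log_Zs_integrable {s : ℝ} (hs : 0 ≤ s) {f : ℝ → ℝ} (hf : Measurable f) {B : ℝ}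
    (hB : ∀ t, |f t| ≤ B) {M N : ℕ} :
    Integrable (fun g : Fin M → Fin N → ℝ => Real.log (Zs s f g)) (disorder M N) := by
  refine Integrable.of_bound (Real.measurable_log.comp (Zs_measurable s hf)).aestronglyMeasurable
    (s * (M * B)) (Filter.Eventually.of_forall fun g => ?_)
  rw [Real.norm_eq_abs, abs_le]
  constructor
  · rw [Real.le_log_iff_exp_le (Zs_pos s f g)]
    exact le_Zs hs hB g
  · rw [Real.log_le_iff_le_exp (Zs_pos s f g)]
    exact Zs_le hs hB g

theorem gauss_exp_pos {s : ℝ} {f : ℝ → ℝ} (hf : Measurable f) {B : ℝ} (hs : 0 ≤ s)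
    (hB : ∀ t, |f t| ≤ B) : 0 < ∫ t, Real.exp (s * f t) ∂(gaussianReal 0 1) := by
  have hi : Integrable (fun t => Real.exp (s * f t)) (gaussianReal 0 1) := by
    refine Integrable.of_bound (Real.measurable_exp.comp (hf.const_mul s)).aestronglyMeasurable
      (Real.exp (s * B)) (Filter.Eventually.of_forall fun t => ?_)
    rw [Real.norm_of_nonneg (Real.exp_pos _).le]
    exact Real.exp_le_exp.2 (mul_le_mul_of_nonneg_left ((le_abs_self _).trans (hB t)) hs)
  have h1 : ∫ _t : ℝ, Real.exp (-(s * B)) ∂(gaussianReal 0 1)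
      ≤ ∫ t, Real.exp (s * f t) ∂(gaussianReal 0 1) := by
    refine integral_mono (integrable_const _) hi fun t => Real.exp_le_exp.2 ?_
    have h := (abs_le.1 (hB t)).1
    nlinarith [mul_le_mul_of_nonneg_left h hs]
  rw [integral_const, probReal_univ, one_smul] at h1
  exact lt_of_lt_of_le (Real.exp_pos _) h1

/-- Jensen -/
theorem jensen_log {s : ℝ} (hs : 0 ≤ s) {f : ℝ → ℝ} (hf : Measurable f) {B : ℝ}
    (hB : ∀ t, |f t| ≤ B) {M N : ℕ} (hN : 0 < N) :
    ∫ g, Real.log (Zs s f g) ∂(disorder M N)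
      ≤ M * Real.log (∫ t, Real.exp (s * f t) ∂(gaussianReal 0 1)) := by
  set c : ℝ := (∫ t, Real.exp (s * f t) ∂(gaussianReal 0 1)) ^ M with hc
  have hc0 : 0 < c := pow_pos (gauss_exp_pos hf hs hB) M
  have h1 : ∫ g, Real.log (Zs s f g) ∂(disorder M N)
      ≤ ∫ g, (Zs s f g / c - 1 + Real.log c) ∂(disorder M N) := by
    refine integral_mono (log_Zs_integrable hs hf hB)
      ((((Zs_integrable hs hf hB).div_const c).sub (integrable_const _)).add
        (integrable_const _)) fun g => ?_
    have h2 := Real.log_le_sub_one_of_pos (div_pos (Zs_pos s f g) hc0)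
    rw [Real.log_div (Zs_pos s f g).ne' hc0.ne'] at h2
    show Real.log (Zs s f g) ≤ Zs s f g / c - 1 + Real.log c
    linarith
  have h3 : ∫ g, (Zs s f g / c - 1 + Real.log c) ∂(disorder M N) = Real.log c := by
    have hA : Integrable (fun g : Fin M → Fin N → ℝ => Zs s f g / c) (disorder M N) :=
      (Zs_integrable hs hf hB).div_const c
    have hA1 : Integrable (fun g : Fin M → Fin N → ℝ => Zs s f g / c - 1) (disorder M N) :=
      hA.sub (integrable_const _)
    rw [integral_add hA1 (integrable_const _), integral_sub hA (integrable_const _), integral_div,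
      Zs_integral hf hs hB hN, ← hc, div_self hc0.ne']
    simp
  rw [h3, hc, Real.log_pow] at h1
  exact h1

/-- the finite volume bound -/
theorem pressure_le {f : ℝ → ℝ} (hf : Measurable f) {B : ℝ} (hB : ∀ t, |f t| ≤ B) {M N : ℕ}
    (hN : 0 < N) {s : ℝ} (hs : 0 < s) (hs1 : s ≤ 1) :
    ∫ g, pressure f M N g ∂(disorder M N)
      ≤ (1 / s - 1) * Real.log 2
        + M / (s * N) * Real.log (∫ t, Real.exp (s * f t) ∂(gaussianReal 0 1)) := by
  have hN' : (0 : ℝ) < N := by exact_mod_cast hN
  have e1 : ∀ g : Fin M → Fin N → ℝ, pressure f M N g = 1 / N * Real.log (Zs 1 f g) := by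
    intro g
    unfold pressure Zs
    simp only [one_mul]
  simp_rw [e1]
  rw [integral_const_mul]
  have h1 : ∫ g, Real.log (Zs 1 f g) ∂(disorder M N)
      ≤ ∫ g, (1 / s * Real.log (Zs s f g) + (1 / s - 1) * (N * Real.log 2)) ∂(disorder M N) :=
    integral_mono (log_Zs_integrable zero_le_one hf hB)
      (((log_Zs_integrable hs.le hf hB).const_mul _).add (integrable_const _))
      fun g => log_Z1_le hs hs1 f g
  rw [integral_add ((log_Zs_integrable hs.le hf hB).const_mul _) (integrable_const _),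
    integral_const_mul, integral_const, probReal_univ, one_smul] at h1
  have h2 := jensen_log (M := M) (N := N) hs.le hf hB hN
  have h3 : ∫ g, Real.log (Zs 1 f g) ∂(disorder M N)
      ≤ 1 / s * (M * Real.log (∫ t, Real.exp (s * f t) ∂(gaussianReal 0 1)))
        + (1 / s - 1) * (N * Real.log 2) := by
    have := mul_le_mul_of_nonneg_left h2 (by positivity : (0 : ℝ) ≤ 1 / s)
    linarith
  have h4 := mul_le_mul_of_nonneg_left h3 (by positivity : (0 : ℝ) ≤ 1 / N)
  refine h4.trans (le_of_eq ?_)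
  field_simp
  ring

end Vale.Agent.P157
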