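import Vale.Agent.P157.Main

/-! # P157: strict improvement on the annealed bound -/

namespace Vale.Agent.P157

open MeasureTheory ProbabilityTheory

theorem exp_integrable {s : ℝ} {f : ℝ → ℝ} (hf : Measurable f) {B : ℝ} (hs : 0 ≤ s)
    (hB : ∀ t, |f t| ≤ B) : Integrable (fun t => Real.exp (s * f t)) (gaussianReal 0 1) := by
  refine Integrable.of_bound (Real.measurable_exp.comp (hf.const_mul s)).aestronglyMeasurable
    (Real.exp (s * B)) (Filter.Eventually.of_forall fun t => ?_)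
  rw [Real.norm_of_nonneg (Real.exp_pos _).le]
  exact Real.exp_le_exp.2 (mul_le_mul_of_nonneg_left ((le_abs_self _).trans (hB t)) hs)

/-- strict Cauchy-Schwarz -/
theorem sq_lt {f : ℝ → ℝ} (hf : Measurable f) {B : ℝ} (hB : ∀ t, |f t| ≤ B)
    (hne : ¬ ∃ c : ℝ, ∀ᵐ t ∂(gaussianReal 0 1), f t = c) :
    (∫ t, Real.exp (1 / 2 * f t) ∂(gaussianReal 0 1)) ^ 2
      < ∫ t, Real.exp (1 * f t) ∂(gaussianReal 0 1) := by
  set m := ∫ t, Real.exp (1 / 2 * f t) ∂(gaussianReal 0 1) with hm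
  have hm0 : 0 < m := gauss_exp_pos hf (by norm_num) hB
  have i1 := exp_integrable (s := 1) hf (by norm_num) hB
  have i2 := exp_integrable (s := 1 / 2) hf (by norm_num) hB
  have e : ∀ t, (Real.exp (1 / 2 * f t) - m) ^ 2
      = Real.exp (1 * f t) - 2 * m * Real.exp (1 / 2 * f t) + m ^ 2 := by
    intro t
    have : Real.exp (1 * f t) = Real.exp (1 / 2 * f t) ^ 2 := by
      rw [← Real.exp_nat_mul]; congr 1; push_cast; ring
    rw [this]; ring
  have hI1 : Integrable (fun t => Real.exp (1 * f t) - 2 * m * Real.exp (1 / 2 * f t))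
      (gaussianReal 0 1) := i1.sub (i2.const_mul _)
  have hI : Integrable (fun t => (Real.exp (1 / 2 * f t) - m) ^ 2) (gaussianReal 0 1) := by
    simp_rw [e]
    exact hI1.add (integrable_const _)
  have hval : ∫ t, (Real.exp (1 / 2 * f t) - m) ^ 2 ∂(gaussianReal 0 1)
      = (∫ t, Real.exp (1 * f t) ∂(gaussianReal 0 1)) - m ^ 2 := by
    simp_rw [e]
    rw [integral_add hI1 (integrable_const _), integral_sub i1 (i2.const_mul _),
      integral_const_mul, ← hm, integral_const, probReal_univ, one_smul]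
    ring
  have hnn : 0 ≤ ∫ t, (Real.exp (1 / 2 * f t) - m) ^ 2 ∂(gaussianReal 0 1) :=
    integral_nonneg fun t => sq_nonneg _
  rcases hnn.lt_or_eq with h | h
  · linarith
  · exfalso
    apply hne
    have h0 := (integral_eq_zero_iff_of_nonneg (fun t => sq_nonneg _) hI).1 h.symm
    refine ⟨2 * Real.log m, ?_⟩
    filter_upwards [h0] with t ht
    have h1 : Real.exp (1 / 2 * f t) = m := by
      have h2 : (Real.exp (1 / 2 * f t) - m) ^ 2 = 0 := ht
      have := pow_eq_zero_iff (two_ne_zero) |>.1 h2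
      linarith
    have h2 : 1 / 2 * f t = Real.log m := by rw [← h1, Real.log_exp]
    linarith

/-- the annealed bound is not attained asymptotically at large density -/
theorem strict {f : ℝ → ℝ} (hf : Measurable f) {B : ℝ} (hB : ∀ t, |f t| ≤ B)
    {α : ℝ} (hα0 : 0 < α)
    (hα : Real.log 2 < α * (Real.log (∫ t, Real.exp (f t) ∂(gaussianReal 0 1))
      - 2 * Real.log (∫ t, Real.exp (f t / 2) ∂(gaussianReal 0 1)))) :
    ∃ κ : ℝ, 0 < κ ∧ ∃ N₀ : ℕ, ∀ N : ℕ, N₀ ≤ N →
      ∫ g, pressure f ⌊α * N⌋₊ N g ∂(disorder ⌊α * N⌋₊ N)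
        ≤ (⌊α * N⌋₊ : ℝ) / N * Real.log (∫ t, Real.exp (f t) ∂(gaussianReal 0 1)) - κ := by
  have e1 : ∀ t, Real.exp (f t / 2) = Real.exp (1 / 2 * f t) := fun t => by congr 1; ring
  simp_rw [e1] at hα
  set L := Real.log (∫ t, Real.exp (f t) ∂(gaussianReal 0 1)) with hL
  set K := Real.log (∫ t, Real.exp (1 / 2 * f t) ∂(gaussianReal 0 1)) with hK
  set η := L - 2 * K with hη
  have hη0 : 0 < η := by
    have h2 : 0 < Real.log 2 := Real.log_pos (by norm_num)
    by_contra hcon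
    push Not at hcon
    nlinarith
  refine ⟨(α * η - Real.log 2) / 2, by linarith, ⌈2 * η / (α * η - Real.log 2)⌉₊ + 1, ?_⟩
  intro N hN
  have hN0 : 0 < N := by omega
  have hN' : (0 : ℝ) < N := by exact_mod_cast hN0
  have hd : 0 < α * η - Real.log 2 := by linarith
  have h1 := pressure_le (M := ⌊α * N⌋₊) hf hB hN0 (s := 1 / 2) (by norm_num) (by norm_num)
  rw [← hK] at h1
  have h2 : 2 * η / (α * η - Real.log 2) ≤ N := by
    have h3 := Nat.le_ceil (2 * η / (α * η - Real.log 2))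
    have h4 : ((⌈2 * η / (α * η - Real.log 2)⌉₊ : ℕ) : ℝ) ≤ N := by
      exact_mod_cast (by omega : ⌈2 * η / (α * η - Real.log 2)⌉₊ ≤ N)
    linarith
  rw [div_le_iff₀ hd] at h2
  have h3 : α * N - 1 < (⌊α * N⌋₊ : ℝ) := by
    have := Nat.lt_floor_add_one (α * N)
    linarith
  set M : ℝ := (⌊α * N⌋₊ : ℝ) with hM
  have h4 : (1 / (1 / 2) - 1) * Real.log 2 + M / (1 / 2 * N) * K
      = Real.log 2 + M / N * (L - η) := by
    rw [hη]
    field_simp
    ring
  rw [h4] at h1
  refine h1.trans ?_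
  have h5 : Real.log 2 + (α * η - Real.log 2) / 2 ≤ M / N * η := by
    rw [div_mul_eq_mul_div, le_div_iff₀ hN']
    nlinarith
  nlinarith

/-- the threshold is finite for every non-constant `f` -/
theorem gap_pos {f : ℝ → ℝ} (hf : Measurable f) {B : ℝ} (hB : ∀ t, |f t| ≤ B)
    (hne : ¬ ∃ c : ℝ, ∀ᵐ t ∂(gaussianReal 0 1), f t = c) :
    0 < Real.log (∫ t, Real.exp (f t) ∂(gaussianReal 0 1))
      - 2 * Real.log (∫ t, Real.exp (f t / 2) ∂(gaussianReal 0 1)) := by
  have e1 : ∀ t, Real.exp (f t / 2) = Real.exp (1 / 2 * f t) := fun t => by congr 1; ring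
  simp_rw [e1]
  have h1 := sq_lt hf hB hne
  simp only [one_mul] at h1
  have hm0 : 0 < ∫ t, Real.exp (1 / 2 * f t) ∂(gaussianReal 0 1) :=
    gauss_exp_pos hf (by norm_num) hB
  have h2 := Real.log_lt_log (pow_pos hm0 2) h1
  rw [Real.log_pow] at h2
  push_cast at h2
  linarith

end Vale.Agent.P157
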